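import Vale.Agent.P235.R2.H418.Ind

/-!
P235-M (helper745).  The vertices of a connected induced subgraph `G[K]` of a plane graph which are
adjacent to a connected set `L` disjoint from `K` lie on one face of `G[K]`.
-/

set_option linter.all false
set_option autoImplicit false

namespace Vale.Agent.P235.H745

open Set SimpleGraph Vale.Agent.P235 Vale.Agent.P235.H341W

attribute [local instance] finite_dart

variable {V : Type} {G : SimpleGraph V} {σ : Equiv.Perm G.Dart} {K : Set V}

theorem u_sigma {u : G.Dart → ZMod 2} (hu : ∀ d, u (faceNext σ d) = u d) (d : G.Dart) :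
    u (σ d) = u d.symm := by
  have h := hu d.symm
  rwa [faceNext_apply, Dart.symm_symm] at h

/-- the corner of `G[K]` which contains a dart from `K` to its complement -/
theorem corner [Finite V] (fst : ∀ d, (σ d).fst = d.fst)
    (cyc : ∀ d d' : G.Dart, d.fst = d'.fst → σ.SameCycle d d')
    (e : G.Dart) (he : ∃ b : (G.induce K).Dart, (upDart b).fst = e.fst) :
    ∃ a : (G.induce K).Dart, a.fst.1 = e.fst ∧ ∀ u : G.Dart → ZMod 2,
      (∀ d, u (faceNext σ d) = u d) →
      (∀ d, d ∉ Set.range (upDart (G := G) (S := K)) → u d.symm = u d) → u (upDart a) = u e := by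
  classical
  have := Fintype.ofFinite G.Dart
  obtain ⟨b, hb⟩ := he
  obtain ⟨n, _, hn⟩ := (cyc e (upDart b) hb.symm).exists_pow_eq'
  have hex : ∃ n : ℕ, (σ ^ n) e ∈ Set.range (upDart (G := G) (S := K)) := ⟨n, b, hn.symm⟩
  obtain ⟨a, ha⟩ := Nat.find_spec hex
  refine ⟨a, ?_, fun u hu hout => ?_⟩
  · rw [← upDart_fst, ha, pow_fst fst]
  · rw [ha]
    have key : ∀ m : ℕ, m ≤ Nat.find hex → u ((σ ^ m) e) = u e := by
      intro m
      induction m with
      | zero => intro _; rfl
      | succ m ih =>
        intro hm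
        rw [pow_succ', Equiv.Perm.mul_apply, u_sigma hu, hout _ (Nat.find_min hex (by omega)),
          ih (by omega)]
    exact key _ le_rfl

/-- a face function of `G[K]` comes from a face function of `G` -/
theorem lift_face [Finite V] (hc : G.Connected) (hσ : PlaneMap G σ) (hK : (G.induce K).Connected)
    (r : (G.induce K).Dart → ZMod 2) (hr : ∀ a, r (faceNext (indRot σ K) a) = r a) :
    ∃ u : G.Dart → ZMod 2, (∀ d, u (faceNext σ d) = u d) ∧
      (∀ d, d ∉ Set.range (upDart (G := G) (S := K)) → u d.symm = u d) ∧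
      ∀ a b : (G.induce K).Dart, u (upDart a) + r a = u (upDart b) + r b := by
  classical
  have := Fintype.ofFinite V
  have := Fintype.ofFinite G.Dart
  have := Fintype.ofFinite (G.induce K).Dart
  set τ := indRot σ K with hτ
  have hfst : ∀ a, (τ a).fst = a.fst := indRot_fst hσ.fst
  have hcyc : ∀ a b : (G.induce K).Dart, a.fst = b.fst → τ.SameCycle a b := fun a b hab =>
    retPerm_sameCycle σ upDart_injective (hσ.cyc _ _ (congrArg Subtype.val hab))
  have hrs : ∀ a, r (τ a) = r a.symm := fun a => by
    have h := hr a.symm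
    rwa [faceNext_apply, Dart.symm_symm] at h
  set z : (G.induce K).Dart → ZMod 2 := fun a => r a + r a.symm with hzdef
  have hz : ∀ a : (G.induce K).Dart, z a.symm = z a := fun a => by
    simp only [hzdef, Dart.symm_symm, add_comm]
  have hv : ∀ v, ∑ a : (G.induce K).Dart, (if a.fst = v then z a else 0) = 0 := by
    intro v
    have h1 : ∑ a : (G.induce K).Dart, (if a.fst = v then r a.symm else 0) =
        ∑ a : (G.induce K).Dart, (if a.fst = v then r a else 0) := by
      rw [← Equiv.sum_comp τ (fun a : (G.induce K).Dart => if a.fst = v then r a else 0)]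
      refine Finset.sum_congr rfl fun a _ => ?_
      rw [hfst a, hrs a]
    have h2 : ∑ a : (G.induce K).Dart, (if a.fst = v then z a else 0) =
        ∑ a : (G.induce K).Dart, (if a.fst = v then r a else 0) +
          ∑ a : (G.induce K).Dart, (if a.fst = v then r a.symm else 0) := by
      rw [← Finset.sum_add_distrib]
      refine Finset.sum_congr rfl fun a _ => ?_
      by_cases h : a.fst = v
      · simp only [h, if_true, hzdef]
      · simp only [h, if_false, add_zero]
    rw [h2, h1, CharTwo.add_self_eq_zero]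
  have h1 : ∀ v, ∑ d : G.Dart, (if d.fst = v then extDart z d else 0) = 0 := by
    intro v
    have h2 : ∑ a : (G.induce K).Dart, (if a.fst.1 = v then z a else 0) =
        ∑ d : G.Dart, (if d.fst = v then extDart z d else 0) := by
      refine Finset.sum_of_injOn upDart upDart_injective.injOn
        (fun _ _ => Finset.mem_coe.2 (Finset.mem_univ _)) ?_ ?_
      · intro d _ hd
        rw [Finset.coe_univ, Set.image_univ] at hd
        rw [extDart_out z hd, ite_self]
      · intro a _
        rw [extDart_up, upDart_fst]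
    rw [← h2]
    by_cases hvK : v ∈ K
    · refine Eq.trans ?_ (hv ⟨v, hvK⟩)
      refine Finset.sum_congr rfl fun a _ => ?_
      have h3 : (a.fst.1 = v) = (a.fst = ⟨v, hvK⟩) :=
        propext ⟨fun h => Subtype.ext h, fun h => congrArg Subtype.val h⟩
      simp only [h3]
    · refine Finset.sum_eq_zero fun a _ => if_neg ?_
      rintro rfl
      exact hvK a.fst.2
  obtain ⟨u, hu, hzu⟩ := cycStmt V G σ hc hσ inferInstance inferInstance (extDart z) (fun d => by
      by_cases h : d ∈ Set.range (upDart (G := G) (S := K))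
      · obtain ⟨a, rfl⟩ := h
        rw [← upDart_symm, extDart_up, extDart_up, hz]
      · have h2 : d.symm ∉ Set.range (upDart (G := G) (S := K)) := by
          rw [mem_range_upDart] at h ⊢
          exact fun h3 => h ⟨h3.2, h3.1⟩
        rw [extDart_out _ h, extDart_out _ h2]) h1
  have hout : ∀ d, d ∉ Set.range (upDart (G := G) (S := K)) → u d.symm = u d := fun d hd => by
    have h2 := hzu d
    rw [extDart_out _ hd] at h2
    exact (CharTwo.add_eq_zero.1 h2.symm).symm
  refine ⟨u, hu, hout, fun a b => ?_⟩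
  refine const_of_inv hK hcyc (fun a => u (upDart a) + r a) (fun a => ?_) (fun a => ?_) a b
  · show u (upDart (faceNext τ a)) + r (faceNext τ a) = _
    rw [hr a, faceNext_apply, indRot_const hu hout, upDart_symm, Dart.symm_symm]
  · have h3 := hzu (upDart a)
    rw [extDart_up] at h3
    have h4 : u (upDart a).symm = r a + r a.symm + u (upDart a) := by
      have h5 : r a + r a.symm = u (upDart a) + u (upDart a).symm := h3
      rw [h5, add_right_comm, CharTwo.add_self_eq_zero, zero_add]
    show u (upDart a).symm + r a.symm = u (upDart a) + r a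
    rw [h4]
    have h6 : r a.symm + r a.symm = 0 := CharTwo.add_self_eq_zero _
    calc r a + r a.symm + u (upDart a) + r a.symm
        = u (upDart a) + r a + (r a.symm + r a.symm) := by ring
      _ = _ := by rw [h6, add_zero]

/-- a face function which does not change across the darts off `K` is constant on the darts which
start in a connected set off `K` -/
theorem const_conn [Finite V] (fst : ∀ d, (σ d).fst = d.fst)
    (cyc : ∀ d d' : G.Dart, d.fst = d'.fst → σ.SameCycle d d') {L : Set V}
    (hL : (G.induce L).Preconnected) (hKL : Disjoint K L) {u : G.Dart → ZMod 2}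
    (hu : ∀ d, u (faceNext σ d) = u d)
    (hout : ∀ d, d ∉ Set.range (upDart (G := G) (S := K)) → u d.symm = u d)
    (d d' : G.Dart) (hd : d.fst ∈ L) (hd' : d'.fst ∈ L) : u d = u d' := by
  classical
  have := Fintype.ofFinite G.Dart
  have hoff : ∀ x : G.Dart, x.fst ∈ L → x ∉ Set.range (upDart (G := G) (S := K)) := by
    intro x hx h
    rw [mem_range_upDart] at h
    exact Set.disjoint_left.1 hKL h.1 hx
  have hat : ∀ x y : G.Dart, x.fst ∈ L → x.fst = y.fst → u x = u y := by
    intro x y hx hxy
    obtain ⟨n, _, hn⟩ := (cyc x y hxy).exists_pow_eq'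
    have key : ∀ m : ℕ, u ((σ ^ m) x) = u x := by
      intro m
      induction m with
      | zero => rfl
      | succ m ih =>
        rw [pow_succ', Equiv.Perm.mul_apply, u_sigma hu, hout _ (hoff _ ?_), ih]
        rw [pow_fst fst]
        exact hx
    rw [← hn, key]
  have key : ∀ (x y : L) (p : (G.induce L).Walk x y) (a b : G.Dart), a.fst = x.1 → b.fst = y.1 →
      u a = u b := by
    intro x y p
    induction p with
    | nil =>
      intro a b ha hb
      exact hat a b (by rw [ha]; exact Subtype.prop _) (ha.trans hb.symm)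
    | @cons x w y h p ih =>
      intro a b ha hb
      let e : G.Dart := ⟨(x.1, w.1), h⟩
      have h1 : u a = u e := hat a e (by rw [ha]; exact x.2) ha
      have h2 : u e.symm = u e := hout e (hoff e x.2)
      rw [h1, ← h2]
      exact ih e.symm b rfl hb
  obtain ⟨p⟩ := hL ⟨d.fst, hd⟩ ⟨d'.fst, hd'⟩
  exact key _ _ p d d' rfl rfl

/-- **The vertices of `G[K]` adjacent to a connected set off `K` lie on one face of `G[K]`.** -/
theorem one_face [Finite V] (hc : G.Connected) (hσ : PlaneMap G σ) (hK : (G.induce K).Connected)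
    (hne : Nonempty (G.induce K).Dart) {L : Set V} (hL : (G.induce L).Preconnected)
    (hKL : Disjoint K L) :
    ∃ a₀ : (G.induce K).Dart, ∀ v : K, (∃ w ∈ L, G.Adj v.1 w) → v ∈ onFace (indRot σ K) a₀ := by
  classical
  have hdart : ∀ v : K, ∃ b : (G.induce K).Dart, b.fst = v := by
    intro v
    obtain ⟨c⟩ := hne
    by_cases hv : c.fst = v
    · exact ⟨c, hv⟩
    · obtain ⟨p⟩ := hK.preconnected v c.fst
      cases p with
      | nil => exact absurd rfl hv
      | @cons _ w _ h _ => exact ⟨⟨(v, w), h⟩, rfl⟩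
  have hcor : ∀ v : K, ∀ w, w ∈ L → G.Adj v.1 w → ∃ a : (G.induce K).Dart, a.fst = v ∧
      ∀ u : G.Dart → ZMod 2, (∀ d, u (faceNext σ d) = u d) →
      (∀ d, d ∉ Set.range (upDart (G := G) (S := K)) → u d.symm = u d) →
      ∃ d : G.Dart, d.fst ∈ L ∧ u (upDart a) = u d := by
    intro v w hw hvw
    let e : G.Dart := ⟨(v.1, w), hvw⟩
    obtain ⟨b, hb⟩ := hdart v
    obtain ⟨a, ha, hua⟩ := corner hσ.fst hσ.cyc e ⟨b, by rw [upDart_fst, hb]⟩
    refine ⟨a, Subtype.ext ha, fun u hu hout => ⟨e.symm, hw, ?_⟩⟩
    rw [hua u hu hout, hout e]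
    intro h
    rw [mem_range_upDart] at h
    exact Set.disjoint_left.1 hKL h.2 hw
  by_cases hex : ∃ v : K, ∃ w ∈ L, G.Adj v.1 w
  · obtain ⟨v₀, w₀, hw₀, hvw₀⟩ := hex
    obtain ⟨a₀, ha₀, hu₀⟩ := hcor v₀ w₀ hw₀ hvw₀
    refine ⟨a₀, fun v ⟨w, hw, hvw⟩ => ?_⟩
    obtain ⟨a, ha, hua⟩ := hcor v w hw hvw
    refine ⟨a, ?_, ha⟩
    by_contra hno
    let r : (G.induce K).Dart → ZMod 2 := fun b =>
      if (faceNext (indRot σ K)).SameCycle a₀ b then 1 else 0
    have hr : ∀ b, r (faceNext (indRot σ K) b) = r b := fun b => by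
      simp only [r, Equiv.Perm.sameCycle_apply_right]
    obtain ⟨u, hu, hout, hconst⟩ := lift_face hc hσ hK r hr
    obtain ⟨d₀, hd₀, e₀⟩ := hu₀ u hu hout
    obtain ⟨d, hd, e⟩ := hua u hu hout
    have h1 : u (upDart a₀) = u (upDart a) := by
      rw [e₀, e]
      exact const_conn hσ.fst hσ.cyc hL hKL hu hout d₀ d hd₀ hd
    have h2 := hconst a₀ a
    rw [h1] at h2
    have h3 : r a₀ = r a := add_left_cancel h2
    have h4 : r a₀ = 1 := if_pos (Equiv.Perm.SameCycle.refl _ _)
    have h5 : r a = 0 := if_neg hno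
    rw [h4, h5] at h3
    exact one_ne_zero h3
  · obtain ⟨c⟩ := hne
    exact ⟨c, fun v hv => absurd ⟨v, hv⟩ hex⟩

end Vale.Agent.P235.H745
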