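import Vale.Agent.P235.R2.H745.OneFace
import Vale.Agent.P235.R2.H582.KprAll
import Vale.Agent.P235.R2.H802.T4All
import Vale.Agent.P235.R2.H934.Multi4

/-!
P235-M (helper745).  Plane metrics with any number of uncovered maxima: up to `log log n` and the
number of components, the distortion is that of the metric on the exceptional set.
-/

set_option linter.all false
set_option autoImplicit false

namespace Vale.Agent.P235.H745

open Set SimpleGraph Vale.Agent.P235 Vale.Agent.P235.Red Vale.Agent.P235.H341W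

/-- if descending steps inside `K` lead from every vertex of `K` except `r`, then `r ∈ K` and `G[K]`
is connected -/
theorem down_conn {V : Type} [Finite V] {G : SimpleGraph V} {h : V → ℝ} {r : V} {K : Set V}
    (hne : K.Nonempty) (hlow : ∀ v ∈ K, v ≠ r → ∃ u ∈ K, G.Adj v u ∧ h u < h v) :
    r ∈ K ∧ (G.induce K).Connected := by
  classical
  have hmin : ∀ T : Set V, T.Nonempty → ∃ v ∈ T, ∀ u ∈ T, h v ≤ h u := fun T hT =>
    Set.exists_min_image T h (Set.toFinite T) hT
  have hr : r ∈ K := by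
    obtain ⟨v, hv, hmv⟩ := hmin K hne
    by_cases e : v = r
    · exact e ▸ hv
    · obtain ⟨u, hu, _, hlt⟩ := hlow v hv e
      exact absurd (hmv u hu) (not_le.2 hlt)
  have key : ∀ v (hv : v ∈ K), (G.induce K).Reachable ⟨v, hv⟩ ⟨r, hr⟩ := by
    by_contra hno
    push Not at hno
    obtain ⟨v₀, hv₀, hn₀⟩ := hno
    obtain ⟨v, ⟨hv, hnv⟩, hmv⟩ := hmin
      {v | ∃ hv : v ∈ K, ¬ (G.induce K).Reachable ⟨v, hv⟩ ⟨r, hr⟩} ⟨v₀, hv₀, hn₀⟩
    by_cases e : v = r
    · subst e
      exact hnv (Reachable.refl _)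
    · obtain ⟨u, hu, huv, hlt⟩ := hlow v hv e
      by_cases hru : (G.induce K).Reachable ⟨u, hu⟩ ⟨r, hr⟩
      · refine hnv (Reachable.trans (Adj.reachable ?_) hru)
        exact huv
      · exact absurd (hmv u ⟨hu, hru⟩) (not_le.2 hlt)
  refine ⟨hr, ?_⟩
  have : Nonempty K := ⟨⟨r, hr⟩⟩
  exact ⟨fun a b => (key a.1 a.2).trans (key b.1 b.2).symm⟩

/-- **Ridge theorem.**  `G` plane, `h` nonexpansive, `E` the union of `m` connected sets; every
vertex outside `E` has an edge of slope at least `1/D` upwards and, except `r`, one downwards which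
ends outside `E`; `d` on `E` has distortion at most `B`.  Then `d` has distortion at most
`K C (D (LL(|V|) + √log (m + 2)) + B)`. -/
theorem ridge {C : ℝ} (hC : 1 ≤ C) (hM : MStarLL C) (V : Type) [Finite V]
    (G : SimpleGraph V) (σ : Equiv.Perm G.Dart) (ℓ : Sym2 V → ℝ) (h : V → ℝ) (r : V) (D : ℝ)
    (m : ℕ) (L : Fin m → Set V) (B : ℝ) (hD : 1 ≤ D) (hc : G.Connected) (hP : PlaneMap G σ)
    (hℓ : ∀ e ∈ G.edgeSet, 0 < ℓ e) (h1 : ∀ u v, G.Adj u v → |h u - h v| ≤ ℓ s(u, v))
    (hL : ∀ i, (G.induce (L i)).Preconnected)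
    (hlow : ∀ v, v ∉ ⋃ i, L i → v ≠ r →
      ∃ u, u ∉ ⋃ i, L i ∧ G.Adj v u ∧ ℓ s(v, u) ≤ D * (h v - h u))
    (hhigh : ∀ v, v ∉ ⋃ i, L i → ∃ u, G.Adj v u ∧ ℓ s(v, u) ≤ D * (h u - h v))
    (hB : 1 ≤ B) (hE : EmbedsL1 (fun x y : (⋃ i, L i : Set V) => pathDist G ℓ x y) B) :
    EmbedsL1 (pathDist G ℓ) (2 * 10 ^ 35 * C *
      (D * ((ll (Nat.card V) : ℝ) + 1 + √(Real.log ((m : ℝ) + 2))) + B)) := by
  classical
  set E : Set V := ⋃ i, L i with hEdef
  have hV : Nonempty V := hc.nonempty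
  have hEne : E.Nonempty := by
    by_contra hn
    rw [Set.not_nonempty_iff_eq_empty] at hn
    obtain ⟨x, hx⟩ := Finite.exists_max h
    obtain ⟨u, hu, hs⟩ := hhigh x (by rw [hn]; exact Set.notMem_empty x)
    have h2 := hℓ s(x, u) ((SimpleGraph.mem_edgeSet G).2 hu)
    have h3 := hx u
    nlinarith
  have hX0 : (0 : ℝ) ≤ √(Real.log ((m : ℝ) + 2)) := Real.sqrt_nonneg _
  have hll0 : (0 : ℝ) ≤ (ll (Nat.card V) : ℝ) := Nat.cast_nonneg _
  have hX1 : (1 : ℝ) ≤ (ll (Nat.card V) : ℝ) + 1 + √(Real.log ((m : ℝ) + 2)) := by linarith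
  set X : ℝ := (ll (Nat.card V) : ℝ) + 1 + √(Real.log ((m : ℝ) + 2)) with hXdef
  set Q : ℝ := 4 * (10 ^ 9 * 1000000000000000) * C * D * X with hQdef
  have hCD : 1 ≤ C * D := by nlinarith
  have hQ : 1 ≤ Q := by
    have h2 : 1 ≤ C * D * X := by nlinarith
    have h3 : Q = 4 * (10 ^ 9 * 1000000000000000) * (C * D * X) := by rw [hQdef]; ring
    rw [h3]
    linarith
  have hslope : ∀ v u, G.Adj v u → ℓ s(v, u) ≤ D * (h v - h u) → h u < h v := fun v u ha hs => by
    have h2 := hℓ s(v, u) ((SimpleGraph.mem_edgeSet G).2 ha)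
    nlinarith
  -- the complement of `E`
  have hK : ∀ v, v ∉ E → r ∈ Eᶜ ∧ (G.induce Eᶜ).Connected := fun v hv =>
    down_conn (h := h) ⟨v, hv⟩ fun w hw hwr => by
      obtain ⟨u, hu, ha, hs⟩ := hlow w hw hwr
      exact ⟨u, hu, ha, hslope w u ha hs⟩
  have hParts : Pk.Parts G E (fun _ => Eᶜ) := by
    intro u hu
    refine ⟨?_, (hK u hu).2⟩
    rintro v ⟨p, hp⟩
    exact hp v p.end_mem_support
  have hleaf : ∀ u, u ∉ E → EmbedsL1
      (pathDist (G.induce Eᶜ) (fun e : Sym2 (Eᶜ : Set V) => ℓ (e.map Subtype.val))) Q := by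
    intro u hu
    obtain ⟨hr, hKc⟩ := hK u hu
    have hℓ' : ∀ e ∈ (G.induce Eᶜ).edgeSet, 0 < ℓ (e.map Subtype.val) := by
      intro e
      induction e using Sym2.ind with
      | _ a b =>
        intro hab
        exact hℓ s(a.1, b.1) ((SimpleGraph.mem_edgeSet G).2 ((SimpleGraph.mem_edgeSet _).1 hab))
    by_cases hne : Nonempty (G.induce Eᶜ).Dart
    · have hdis : ∀ i, Disjoint Eᶜ (L i) := fun i =>
        Set.disjoint_left.2 fun x hx hxi => hx (Set.mem_iUnion.2 ⟨i, hxi⟩)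
      choose a ha using fun i => one_face hc hP hKc hne (hL i) (hdis i)
      have h2 := SqR.plane_all hC hM (Eᶜ : Set V) (G.induce Eᶜ) (indRot σ Eᶜ)
        (fun e : Sym2 (Eᶜ : Set V) => ℓ (e.map Subtype.val)) (fun v => h v.1) ⟨r, hr⟩ D
        (Finset.univ.image a) ∅ hD hKc (indRot_plane hc hP hKc hne) hℓ'
        (fun x y hxy => h1 x.1 y.1 hxy)
        (fun v hv => by
          obtain ⟨w, hw, hadj, hs⟩ := hlow v.1 v.2 (fun e => hv (Subtype.ext e))
          exact ⟨⟨w, hw⟩, hadj, hs⟩)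
        (fun v => by
          obtain ⟨w, hadj, hs⟩ := hhigh v.1 v.2
          by_cases hw : w ∈ E
          · obtain ⟨i, hi⟩ := Set.mem_iUnion.1 hw
            exact Or.inr (Or.inr ⟨a i, Finset.mem_image_of_mem _ (Finset.mem_univ i),
              ha i v ⟨w, hi, hadj⟩⟩)
          · exact Or.inl ⟨⟨w, hw⟩, hadj, hs⟩)
      refine embeds_mono (fun x y => (pathDist_isMet hKc hℓ').nonneg x y) ?_ h2
      rw [hQdef]
      refine mul_le_mul_of_nonneg_left ?_ (by positivity)
      rw [hXdef]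
      have h3 : (ll (Nat.card (Eᶜ : Set V)) : ℝ) ≤ ll (Nat.card V) := by
        have h4 : Nat.card (Eᶜ : Set V) ≤ Nat.card V := Nat.card_le_card_of_injective _
          Subtype.val_injective
        exact_mod_cast R2.H582.ll_mono h4
      have h5 : ((((∅ : Finset (Eᶜ : Set V)).card + (Finset.univ.image a).card : ℕ)) : ℝ) ≤ m := by
        rw [Finset.card_empty, zero_add]
        have h6 := Finset.card_image_le (s := (Finset.univ : Finset (Fin m))) (f := a)
        rw [Finset.card_univ, Fintype.card_fin] at h6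
        exact_mod_cast h6
      have h7 : √(Real.log ((((∅ : Finset (Eᶜ : Set V)).card +
          (Finset.univ.image a).card : ℕ) : ℝ) + 2)) ≤ √(Real.log ((m : ℝ) + 2)) :=
        Real.sqrt_le_sqrt (Real.log_le_log (by positivity) (by linarith))
      linarith
    · have hs := subsingleton_of_no_dart hKc hne
      exact embeds_of_subsingleton (fun x y => Subsingleton.elim x y)
        (fun x => (pathDist_isMet hKc hℓ').self x) Q
  have hR : Pk.SetRounds Q 0 0 0 0 (0 + B) G ℓ :=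
    Pk.SetRounds.set hP hEne hB hE hParts le_rfl fun u hu => Pk.SetRounds.leaf (hleaf u hu)
  have h8 := SqR.setRounds_final (A := 10000) (by norm_num) (SqR.stepX_of Kpr.step) hQ
    (by linarith) hc hℓ hR
  refine embeds_mono (fun x y => (pathDist_isMet hc hℓ).nonneg x y) ?_ h8
  have h9 : √((0 : ℕ) : ℝ) = 0 := by simp
  rw [h9, hQdef]
  have h10 : B ≤ C * B := by nlinarith
  have h11 : 0 ≤ C * D * X := by positivity
  push_cast
  nlinarith

end Vale.Agent.P235.H745
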