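import Vale.Agent.P235.R2.H745.OneFace
import Vale.Agent.P235.R2.H745.RidgeDefs
import Vale.Agent.P235.R2.H341.KrPf
import Vale.Agent.P235.R2.H582.KprAll
import Vale.Agent.P235.R2.H934.Multi4
import Vale.Agent.P235.R2.H90.ClsU
import Vale.Agent.P235.R2.RED.SweptE

/-!
P235-M (helper745).  Plane metrics with ridges: sources, sinks and ridges cost the square root of
the logarithm of their number, and the metric on the ridges is charged additively.
-/

set_option linter.all false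
set_option autoImplicit false

namespace Vale.Agent.P235.Pf

open Set SimpleGraph Vale.Agent.P235 Vale.Agent.P235.R2.H90.PlaneU Vale.Agent.P235.H341W

theorem surf_zero {V : Type} {G : SimpleGraph V} {σ : Equiv.Perm G.Dart} (h : PlaneMap G σ) :
    SurfMap 0 G σ := ⟨h.fst, h.cyc, by have := h.euler; omega⟩

theorem ridge_num {C₀ D LL m : ℝ} (hC₀ : 1 ≤ C₀) (hD : 1 ≤ D) {L' : ℝ} (hLL : L' ≤ LL)
    {a b' : ℕ} (hb : (a : ℝ) + b' ≤ m) :
    C₀ * D * (L' + Real.log (1 + ((0 : ℕ) : ℝ) * ((a : ℝ) + 1)) +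
      √(Real.log ((a : ℝ) + b' + 2))) ≤ 2 * C₀ * D * (LL + √(Real.log (m + 2))) - C₀ * D * LL := by
  have h1 : Real.log (1 + ((0 : ℕ) : ℝ) * ((a : ℝ) + 1)) = 0 := by simp
  have ha : (0 : ℝ) ≤ a := Nat.cast_nonneg a
  have hb0 : (0 : ℝ) ≤ b' := Nat.cast_nonneg b'
  have h2 : √(Real.log ((a : ℝ) + b' + 2)) ≤ √(Real.log (m + 2)) :=
    Real.sqrt_le_sqrt (Real.log_le_log (by linarith) (by linarith))
  have h3 : (0 : ℝ) ≤ √(Real.log (m + 2)) := Real.sqrt_nonneg _
  have h4 : 1 ≤ C₀ * D := by nlinarith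
  rw [h1]
  nlinarith

/-- **Ridges.** -/
theorem ridges_embeds {C C₁ : ℝ} (hC1 : 1 ≤ C) (hMS : Red.MStarLL C) (hC₁ : 1 ≤ C₁)
    (hLS : LanesC C₁) {V : Type} [Finite V] {G : SimpleGraph V} {ℓ : Sym2 V → ℝ} {D B : ℝ} {m : ℕ}
    {E : Set V} (hc : G.Connected) (hℓ : ∀ e ∈ G.edgeSet, 0 < ℓ e) (hD : 1 ≤ D) (hB : 1 ≤ B)
    (h : Ridges G ℓ D m E) (hE : EmbedsL1 (fun u v : E => pathDist G ℓ u v) B) :
    EmbedsL1 (pathDist G ℓ) (4 * 10 ^ 41 * (C * C₁) *
      (D * (Swp.LL (Nat.card V) + √(Real.log ((m : ℝ) + 2))) + B)) := by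
  classical
  obtain ⟨σ, h, A, A', k, L, hP, hm, hEL, hL, h1, hlow, hhigh⟩ := h
  have hV : Nonempty V := hc.nonempty
  have hmet := pathDist_isMet hc hℓ
  have hCC : 1 ≤ C * C₁ := by nlinarith
  have hLL1 := Swp.LL_one (Nat.card V)
  have hX0 : (0 : ℝ) ≤ √(Real.log ((m : ℝ) + 2)) := Real.sqrt_nonneg _
  set X : ℝ := Swp.LL (Nat.card V) + √(Real.log ((m : ℝ) + 2)) with hXdef
  have hX1 : 1 ≤ X := by linarith
  set Q : ℝ := 2 * (10 ^ 32 * (C * C₁)) * D * X with hQdef
  have hDX : 1 ≤ D * X := by nlinarith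
  have hP0 : (C * C₁) * (D * X) ≥ 1 := by nlinarith
  have hQe : Q = 2 * 10 ^ 32 * ((C * C₁) * (D * X)) := by rw [hQdef]; ring
  have hQ : 1 ≤ Q := by rw [hQe]; linarith
  have hm' : (A.card : ℝ) + A'.card + k ≤ m := by exact_mod_cast hm
  have hk0 : (0 : ℝ) ≤ k := Nat.cast_nonneg k
  have hC₀ : (1 : ℝ) ≤ 10 ^ 32 * (C * C₁) := by nlinarith
  have hpos : 0 ≤ 10 ^ 32 * (C * C₁) * D * Swp.LL (Nat.card V) := by positivity
  rcases Set.eq_empty_or_nonempty E with he | hEne
  · -- no ridges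
    have hS : OnSurface G ℓ D Set.univ 0 A.card A'.card := by
      refine ⟨σ, h, A, A', ∅, ∅, surf_zero hP, by simp, by simp, by simp, fun u _ v _ => h1 u v,
        fun v _ => ?_, fun v _ => ?_⟩
      · rcases hlow v (by rw [he]; exact Set.notMem_empty v) with ⟨u, _, h2⟩ | h2
        · exact Or.inl ⟨u, trivial, h2⟩
        · exact Or.inr (Or.inl h2)
      · rcases hhigh v (by rw [he]; exact Set.notMem_empty v) with ⟨u, h2⟩ | h2
        · exact Or.inl ⟨u, trivial, h2⟩
        · exact Or.inr (Or.inl h2)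
    have h2 := onSurface_embeds hC1 hMS hC₁ hLS Kpr.step hc hℓ hD hS
    obtain ⟨Ω, mΩ, μ, f, hf⟩ := h2
    refine ⟨Ω, mΩ, μ, fun v => f ⟨v, trivial⟩, fun x y =>
      ⟨(hf ⟨x, trivial⟩ ⟨y, trivial⟩).1, (hf ⟨x, trivial⟩ ⟨y, trivial⟩).2.trans
      (mul_le_mul_of_nonneg_right ?_ (hmet.nonneg x y))⟩⟩
    have h3 := ridge_num (C₀ := 10 ^ 32 * (C * C₁)) (D := D) (m := (m : ℝ)) hC₀ hD
      (le_refl (Swp.LL (Nat.card V))) (a := A.card) (b' := A'.card) (by linarith)
    refine h3.trans ?_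
    have h4 : 2 * (10 ^ 32 * (C * C₁)) * D * X = 2 * 10 ^ 32 * ((C * C₁) * (D * X)) := by ring
    have h5 : 0 ≤ C * C₁ * B := by positivity
    have h6 : 4 * 10 ^ 41 * (C * C₁) * (D * X + B) =
      4 * 10 ^ 41 * ((C * C₁) * (D * X)) + 4 * 10 ^ 41 * (C * C₁ * B) := by ring
    rw [h6]
    rw [← hXdef, h4]
    linarith
  · -- the components of `G - E`
    have hParts : Parts G E (compSet G E) := fun u hu => ⟨le_rfl, comp_connected hu⟩
    have hleaf : ∀ u, u ∉ E → EmbedsL1 (pathDist (G.induce (compSet G E u))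
        (fun e => ℓ (e.map Subtype.val))) Q := by
      intro u hu
      set K : Set V := compSet G E u with hK
      have hKc : (G.induce K).Connected := comp_connected hu
      have hKE : ∀ v ∈ K, v ∉ E := fun v hv => by
        obtain ⟨p, hp⟩ := hv
        exact hp v p.end_mem_support
      have hKadj : ∀ v ∈ K, ∀ w, w ∉ E → G.Adj v w → w ∈ K := by
        intro v hv w hw hvw
        exact ReachOff.trans hv (ReachOff.adj (hKE v hv) hw hvw)
      have hℓ' : ∀ e ∈ (G.induce K).edgeSet, 0 < ℓ (e.map Subtype.val) := by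
        intro e
        induction e using Sym2.ind with
        | _ a b =>
          intro hab
          exact hℓ s(a.1, b.1) ((SimpleGraph.mem_edgeSet G).2 ((SimpleGraph.mem_edgeSet _).1 hab))
      have hmetK := pathDist_isMet hKc hℓ'
      by_cases hne : Nonempty (G.induce K).Dart
      · have hdis : ∀ i, Disjoint K (L i) := fun i =>
          Set.disjoint_left.2 fun x hx hxi => hKE x hx (by
            rw [hEL]
            exact Set.mem_iUnion.2 ⟨i, hxi⟩)
        choose a ha using fun i => H745.one_face hc hP hKc hne (hL i) (hdis i)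
        have hcA : (A.subtype (· ∈ K)).card ≤ A.card := by
          rw [Finset.card_subtype]
          exact Finset.card_filter_le _ _
        have hcA' : (A'.subtype (· ∈ K)).card ≤ A'.card := by
          rw [Finset.card_subtype]
          exact Finset.card_filter_le _ _
        have hcM : (Finset.univ.image a).card ≤ k := by
          have h6 := Finset.card_image_le (s := (Finset.univ : Finset (Fin k))) (f := a)
          rwa [Finset.card_univ, Fintype.card_fin] at h6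
        have hS : OnSurface (G.induce K) (fun e => ℓ (e.map Subtype.val)) D Set.univ 0 A.card
            (A'.card + k) := by
          refine ⟨indRot σ K, fun v => h v.1, A.subtype (· ∈ K), A'.subtype (· ∈ K), ∅,
            Finset.univ.image a, surf_zero (indRot_plane hc hP hKc hne), by simpa using hcA,
            by omega, by simp, fun x _ y _ => (h1 x.1 y.1).trans
              (pathDist_comp_ge hc hℓ hKc x y), fun v _ => ?_, fun v _ => ?_⟩
          · rcases hlow v.1 (hKE v.1 v.2) with ⟨w, hw, hadj, hs⟩ | h2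
            · exact Or.inl ⟨⟨w, hKadj v.1 v.2 w hw hadj⟩, trivial, hadj, hs⟩
            · exact Or.inr (Or.inl (Finset.mem_subtype.2 h2))
          · rcases hhigh v.1 (hKE v.1 v.2) with ⟨w, hadj, hs⟩ | h2
            · by_cases hw : w ∈ E
              · rw [hEL] at hw
                obtain ⟨i, hi⟩ := Set.mem_iUnion.1 hw
                exact Or.inr (Or.inr ⟨a i, Finset.mem_image_of_mem _ (Finset.mem_univ i),
                  ha i v ⟨w, hi, hadj⟩⟩)
              · exact Or.inl ⟨⟨w, hKadj v.1 v.2 w hw hadj⟩, trivial, hadj, hs⟩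
            · exact Or.inr (Or.inl (Finset.mem_subtype.2 h2))
        have h2 := onSurface_embeds hC1 hMS hC₁ hLS Kpr.step hKc hℓ' hD hS
        obtain ⟨Ω, mΩ, μ, f, hf⟩ := h2
        refine ⟨Ω, mΩ, μ, fun v => f ⟨v, trivial⟩, fun x y =>
          ⟨(hf ⟨x, trivial⟩ ⟨y, trivial⟩).1, (hf ⟨x, trivial⟩ ⟨y, trivial⟩).2.trans
          (mul_le_mul_of_nonneg_right ?_ (hmetK.nonneg x y))⟩⟩
        have hcard : Nat.card K ≤ Nat.card V := Nat.card_le_card_of_injective _
          Subtype.val_injective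
        have h3 := ridge_num (C₀ := 10 ^ 32 * (C * C₁)) (D := D) (m := (m : ℝ)) hC₀ hD
          (Swp.LL_mono hcard) (a := A.card) (b' := A'.card + k) (by push_cast; linarith)
        refine h3.trans ?_
        rw [hQdef]
        linarith
      · have hs := subsingleton_of_no_dart hKc hne
        exact embeds_of_subsingleton (fun x y => Subsingleton.elim x y) (fun x => hmetK.self x) Q
    have hR : Rounds Q 0 6 0 (0 + B) G ℓ :=
      Rounds.set (Kr.rowK6 V G hc ⟨σ, hP⟩) hEne hB le_rfl hE hParts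
        fun u hu => Rounds.leaf (hleaf u hu)
    have h8 := rounds_all hQ (by linarith) hc hℓ hR
    obtain ⟨Ω, mΩ, μ, f, hf⟩ := h8
    refine ⟨Ω, mΩ, μ, f, fun x y => ⟨(hf x y).1, (hf x y).2.trans
      (mul_le_mul_of_nonneg_right ?_ (hmet.nonneg x y))⟩⟩
    have h9 : √((0 : ℕ) : ℝ) = 0 := by simp
    rw [h9, hQe]
    have h10 : B ≤ C * C₁ * B := by nlinarith
    have h6 : 4 * 10 ^ 41 * (C * C₁) * (D * X + B) =
      4 * 10 ^ 41 * ((C * C₁) * (D * X)) + 4 * 10 ^ 41 * (C * C₁ * B) := by ring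
    rw [h6]
    push_cast
    linarith

/-- with one constant -/
theorem ridges_all (hL : Kpr.RowLanes) {C : ℝ} (hC1 : 1 ≤ C) (hMS : Red.MStarLL C) :
    ∃ K : ℝ, 1 ≤ K ∧ ∀ (V : Type) [Finite V] (G : SimpleGraph V) (ℓ : Sym2 V → ℝ) (D B : ℝ)
    (m : ℕ) (E : Set V), G.Connected → (∀ e ∈ G.edgeSet, 0 < ℓ e) → 1 ≤ D → 1 ≤ B →
    Ridges G ℓ D m E → EmbedsL1 (fun u v : E => pathDist G ℓ u v) B →
    EmbedsL1 (pathDist G ℓ) (K * (D * (Swp.LL (Nat.card V) + √(Real.log ((m : ℝ) + 2))) + B)) := by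
  obtain ⟨C₁, hC₁, hLS⟩ := hL
  have h1 : 1 ≤ C * C₁ := by nlinarith
  refine ⟨4 * 10 ^ 41 * (C * C₁), by linarith, fun V _ G ℓ D B m E hc hℓ hD hB h hE => ?_⟩
  exact ridges_embeds hC1 hMS hC₁ hLS hc hℓ hD hB h hE

end Vale.Agent.P235.Pf
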